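import Vale.Agent.P021.H749.Arith

set_option autoImplicit false

/-!
# The arithmetic lower bound with real parameters
-/

open Finset

namespace Vale.Agent.P021.H749

open Vale.Agent.P021.Det

lemma sum_leLU {L U C : ℝ}
    (hbd : ∀ x : ℝ, 2000 ≤ x → L * x ≤ Chebyshev.psi x ∧ Chebyshev.psi x ≤ U * x)
    (hle : ∀ x : ℝ, 0 ≤ x → Chebyshev.psi x ≤ C * x) {R : ℝ} (hR : 1000 ≤ R) (N : ℕ)
    (hN : 32 * R ≤ N) :
    ∑ l ∈ (Ioc 0 N).filter Nat.Prime, (R * G ((l : ℝ) / R) + 12) * Real.log l ≤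
      (110931 / 560 * U - 62319 / 880 * L) * R ^ 2 + 12 * (C * N) := by
  have hR0 : 0 < R := by linarith
  have h1 : ∑ l ∈ (Ioc 0 N).filter Nat.Prime, (R * G ((l : ℝ) / R) + 12) * Real.log l =
      ∑ l ∈ (Ioc 0 N).filter Nat.Prime, (R * G ((l : ℝ) / R)) * Real.log l +
        12 * Chebyshev.theta N := by
    rw [Chebyshev.theta, Nat.floor_natCast, mul_sum, ← sum_add_distrib]
    refine sum_congr rfl fun l _ => ?_
    ring
  have h2 := sum_log_le N (fun l => R * G ((l : ℝ) / R))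
    (fun l => mul_nonneg hR0.le (G_nonneg _))
  rw [sum_G hR0] at h2
  have h3 : Chebyshev.theta N ≤ C * N :=
    (Chebyshev.theta_le_psi _).trans (hle _ (Nat.cast_nonneg _))
  have up : ∀ a b : ℝ, 6 ≤ a → a ≤ b → b ≤ 32 →
      P1 N (b * R) - P1 N (a * R) ≤ U * (((b * R) ^ 2 - (a * R) ^ 2) / 2) := by
    intro a b ha hab hb
    have haR : 2000 ≤ a * R := by nlinarith
    refine P1_sub_le N (by linarith) (mul_le_mul_of_nonneg_right hab hR0.le) ?_ ?_
    · exact (mul_le_mul_of_nonneg_right hb hR0.le).trans hN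
    · intro y hy
      exact (hbd y (haR.trans hy.1)).2
  have dn : ∀ a b : ℝ, 6 ≤ a → a ≤ b → b ≤ 32 →
      L * (((b * R) ^ 2 - (a * R) ^ 2) / 2) ≤ P1 N (b * R) - P1 N (a * R) := by
    intro a b ha hab hb
    have haR : 2000 ≤ a * R := by nlinarith
    refine le_P1_sub N (by linarith) (mul_le_mul_of_nonneg_right hab hR0.le) ?_ ?_
    · exact (mul_le_mul_of_nonneg_right hb hR0.le).trans hN
    · intro y hy
      exact (hbd y (haR.trans hy.1)).1
  have u1 := up (31 / 5) (32 / 5) (by norm_num) (by norm_num) (by norm_num)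
  have u2 := up (32 / 5) (13 / 2) (by norm_num) (by norm_num) (by norm_num)
  have u3 := dn (13 / 2) (74 / 11) (by norm_num) (by norm_num) (by norm_num)
  have u4 := up (74 / 7) (32 / 3) (by norm_num) (by norm_num) (by norm_num)
  have u5 := up (32 / 3) 12 (by norm_num) (by norm_num) (by norm_num)
  have u6 := up 12 13 (by norm_num) (by norm_num) (by norm_num)
  have u7 := dn 13 (74 / 5) (by norm_num) (by norm_num) (by norm_num)
  have u8 := up (74 / 3) 26 (by norm_num) (by norm_num) (by norm_num)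
  have u9 := up 26 32 (by norm_num) (by norm_num) (by norm_num)
  have e : (110931 / 560 * U - 62319 / 880 * L) * R ^ 2 =
      5 * (U * (((32 / 5 * R) ^ 2 - (31 / 5 * R) ^ 2) / 2)) +
      5 / 2 * (U * (((13 / 2 * R) ^ 2 - (32 / 5 * R) ^ 2) / 2)) -
      11 / 2 * (L * (((74 / 11 * R) ^ 2 - (13 / 2 * R) ^ 2) / 2)) +
      7 / 2 * (U * (((32 / 3 * R) ^ 2 - (74 / 7 * R) ^ 2) / 2)) +
      2 * (U * (((12 * R) ^ 2 - (32 / 3 * R) ^ 2) / 2)) +
      3 / 2 * (U * (((13 * R) ^ 2 - (12 * R) ^ 2) / 2)) -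
      5 / 2 * (L * (((74 / 5 * R) ^ 2 - (13 * R) ^ 2) / 2)) +
      3 / 2 * (U * (((26 * R) ^ 2 - (74 / 3 * R) ^ 2) / 2)) +
      1 / 2 * (U * (((32 * R) ^ 2 - (26 * R) ^ 2) / 2)) := by ring
  rw [h1, e]
  linarith only [h2, h3, u1, u2, u3, u4, u5, u6, u7, u8, u9]

/-! ### the crude term for `n` at least `160` -/

lemma log_le_aux2 : Real.log 4352160 ≤ 15.2869 := by
  have h1 : Real.log 4352160 = 22 * Real.log 2 + Real.log (4352160 / 4194304) := by
    rw [← Real.log_rpow (by norm_num : (0 : ℝ) < 2), ← Real.log_mul (by positivity) (by norm_num)]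
    norm_num
  have h2 : Real.log (4352160 / 4194304) ≤ 4352160 / 4194304 - 1 :=
    Real.log_le_sub_one_of_pos (by norm_num)
  have h3 := Real.log_two_lt_d9
  rw [h1]
  norm_num at h2 ⊢
  linarith

lemma crude_le160 {n k r : ℝ} (hn : 160 ≤ n) (hk0 : 0 ≤ k) (hk : k ≤ 1000 * n + 2) (hr1 : 1 ≤ r)
    (hr : r ≤ 27201 * n) :
    (46 + 8 / 35 * Real.sqrt r) * (k * Real.log r) ≤ 50000 * n ^ 2 := by
  set t : ℝ := Real.sqrt (n / 160) with ht
  have ht2 : t ^ 2 = n / 160 := Real.sq_sqrt (by linarith)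
  have ht0 : 0 ≤ t := Real.sqrt_nonneg _
  have ht1 : 1 ≤ t := by
    rw [ht]
    exact Real.one_le_sqrt.2 (by linarith)
  have hn' : n = 160 * t ^ 2 := by rw [ht2]; ring
  have h1 : Real.sqrt r ≤ 2086.2 * t := by
    rw [Real.sqrt_le_left (by positivity)]
    rw [mul_pow, ht2]
    linarith
  have h2 : Real.log r ≤ 15.2869 * t := by
    have h3 : Real.log r ≤ Real.log (4352160 * t ^ 2) :=
      Real.log_le_log (by linarith) (by rw [ht2]; linarith)
    have h4 : Real.log (4352160 * t ^ 2) = Real.log 4352160 + 2 * Real.log t := by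
      rw [Real.log_mul (by norm_num) (by positivity), Real.log_pow]
      norm_num
    have h5 : Real.log t ≤ t - 1 := Real.log_le_sub_one_of_pos (by linarith)
    have h6 := log_le_aux2
    linarith
  have h0 : 0 ≤ Real.log r := Real.log_nonneg hr1
  have hs := Real.sqrt_nonneg r
  have a1 : 46 + 8 / 35 * Real.sqrt r ≤ 522.85 * t := by linarith
  have a2 : k ≤ 160002 * t ^ 2 := by nlinarith
  calc (46 + 8 / 35 * Real.sqrt r) * (k * Real.log r)
      ≤ (522.85 * t) * ((160002 * t ^ 2) * (15.2869 * t)) :=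
        mul_le_mul a1 (mul_le_mul a2 h2 h0 (by positivity)) (mul_nonneg hk0 h0) (by positivity)
    _ = (522.85 * 160002 * 15.2869) * (t ^ 2) ^ 2 := by ring
    _ ≤ 50000 * n ^ 2 := by
        rw [hn']
        have : 0 ≤ (t ^ 2) ^ 2 := by positivity
        nlinarith

end Vale.Agent.P021.H749

namespace Vale.Agent.P021.Eff

open Vale.Agent.P021.Det Vale.Agent.P021.H749

/-- **The arithmetic lower bound, all parameters free.** -/
theorem arith_log {L U C : ℝ}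
    (hbd : ∀ x : ℝ, 2000 ≤ x → L * x ≤ Chebyshev.psi x ∧ Chebyshev.psi x ≤ U * x)
    (hle : ∀ x : ℝ, 0 ≤ x → Chebyshev.psi x ≤ C * x)
    (n κ : ℕ) (hn : 20 ≤ n) (hκ : κ ≤ 2) (p q : ℤ) (hq : 0 < q)
    (hdet : (HM ((p : ℝ) / q) (1200 * n) (2600 * n) (5200 * n) (1000 * n + κ)).det ≠ 0) :
    -((40000 * (110931 / 560 * U - 62319 / 880 * L) - 155617) * (n : ℝ) ^ 2 +
      (326412 * C + 24000) * n +
      (46 + 8 / 35 * Real.sqrt
        ((rng (1200 * n) (2600 * n) (5200 * n) (1000 * n + κ) : ℕ) : ℝ)) *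
      (((1000 * n + κ : ℕ) : ℝ) * Real.log
        ((rng (1200 * n) (2600 * n) (5200 * n) (1000 * n + κ) : ℕ) : ℝ))) ≤
    Real.log ((q : ℝ) ^ (1000 * n + κ) *
      |(HM ((p : ℝ) / q) (1200 * n) (2600 * n) (5200 * n) (1000 * n + κ)).det|) := by
  have hnR : (20 : ℝ) ≤ n := by exact_mod_cast hn
  have hκR : (κ : ℝ) ≤ 2 := by exact_mod_cast hκ
  have hκ0 : (0 : ℝ) ≤ κ := Nat.cast_nonneg _
  have hqR : (0 : ℝ) < q := by exact_mod_cast hq
  have hNN := NN_eq (1200 * n) (2600 * n) (5200 * n) (1000 * n + κ) p q hq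
  have hNNR : ((NN (1200 * n) (2600 * n) (5200 * n) (1000 * n + κ) p q : ℚ) : ℝ) ≠ 0 := by
    rw [hNN]
    exact mul_ne_zero (pow_pos (by linarith only [hqR]) _).ne' hdet
  have hNN0 : NN (1200 * n) (2600 * n) (5200 * n) (1000 * n + κ) p q ≠ 0 := by
    exact_mod_cast hNNR
  set N : ℕ := rng (1200 * n) (2600 * n) (5200 * n) (1000 * n + κ) with hNdef
  have hN1 : N = 27200 * n + 4 * κ + 5 := by rw [hNdef, rng]; ring
  have hN2 : (N : ℝ) ≤ 27201 * n := by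
    have : N ≤ 27201 * n := by omega
    exact_mod_cast this
  have hN3 : 32 * (200 * (n : ℝ)) ≤ N := by
    have : 32 * (200 * n) ≤ N := by omega
    exact_mod_cast this
  have hC0 : 0 ≤ C := by
    have h1 := hle 1 (by norm_num)
    have h2 := Chebyshev.psi_nonneg (1 : ℝ)
    linarith only [h1, h2]
  have h3 := log_NN_ge' (fun l => 200 * n * G ((l : ℝ) / (200 * n)) + 12) _ _ _ _ p q
    (fun l => by
      have := G_nonneg ((l : ℝ) / (200 * n))
      positivity)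
    (fun l hl h7 hr => loc n κ (by omega) hκ p q l hl h7 hr) hNN0 (by rw [← hNdef]; omega)
  rw [← hNdef] at h3
  have h4 := sum_leLU hbd hle (R := 200 * n) (by linarith) N hN3
  have h5 := T5_le 1000 1200 2600 5200 n κ
  have h6 := T2_le 1000 2600 5200 n κ hκ
  have hlogeq := log_NN_eq (1200 * n) (2600 * n) (5200 * n) (1000 * n + κ) p q hq hdet
  rw [hlogeq] at h3
  have l5 := Real.log_five_lt_d9
  have l5' : 0 < Real.log 5 := Real.log_pos (by norm_num)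
  have l2 := Real.log_two_gt_d9
  have l2' := Real.log_two_lt_d9
  have hn2 : (0 : ℝ) ≤ (n : ℝ) ^ 2 := by positivity
  have c5 : T5 (1200 * n) (2600 * n) (5200 * n) (1000 * n + κ) ≤
      1577250 * (n : ℝ) ^ 2 + 2300 * n + 2 := by
    refine h5.trans ?_
    have e1 : ((5200 - (1200 + 2600) : ℕ) : ℝ) = 1400 := by norm_num
    rw [e1]
    nlinarith
  have c2 : T2 (2600 * n) (5200 * n) (1000 * n + κ) ≤
      -(1732867 * (n : ℝ) ^ 2) + 20000 * n + 4 := by
    refine h6.trans ?_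
    push_cast
    nlinarith
  have cK : ((1000 * n + κ : ℕ) : ℝ) * Real.log 2 ≤ 1000 * n + 2 := by
    have h9 : (0 : ℝ) ≤ ((1000 * n + κ : ℕ) : ℝ) := Nat.cast_nonneg _
    have hK : ((1000 * n + κ : ℕ) : ℝ) ≤ 1000 * n + 2 := by push_cast; linarith
    nlinarith
  have e6 : (200 * (n : ℝ)) ^ 2 = 40000 * (n : ℝ) ^ 2 := by ring
  rw [e6] at h4
  have h7 : C * (N : ℝ) ≤ C * (27201 * n) := mul_le_mul_of_nonneg_left hN2 hC0
  linarith only [h3, h4, c5, c2, cK, h7, hnR]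

/-- **The arithmetic lower bound for `n` at least `80`, parameters `L`, `U`.** -/
theorem arithLU80 {L U : ℝ}
    (hbd : ∀ x : ℝ, 2000 ≤ x → L * x ≤ Chebyshev.psi x ∧ Chebyshev.psi x ≤ U * x)
    (hle : ∀ x : ℝ, 0 ≤ x → Chebyshev.psi x ≤ 1.04 * x)
    (n κ : ℕ) (hn : 80 ≤ n) (hκ : κ ≤ 2) (p q : ℤ) (hq : 0 < q)
    (hdet : (HM ((p : ℝ) / q) (1200 * n) (2600 * n) (5200 * n) (1000 * n + κ)).det ≠ 0) :
    Real.exp (-((40000 * (110931 / 560 * U - 62319 / 880 * L) - 81073) * (n : ℝ) ^ 2)) ≤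
      (q : ℝ) ^ (1000 * n + κ) *
        |(HM ((p : ℝ) / q) (1200 * n) (2600 * n) (5200 * n) (1000 * n + κ)).det| := by
  have hqR : (0 : ℝ) < q := by exact_mod_cast hq
  have hnR : (80 : ℝ) ≤ n := by exact_mod_cast hn
  have hκR : (κ : ℝ) ≤ 2 := by exact_mod_cast hκ
  have h1 := arith_log hbd hle n κ (by omega) hκ p q hq hdet
  have hN1 : rng (1200 * n) (2600 * n) (5200 * n) (1000 * n + κ) = 27200 * n + 4 * κ + 5 := by
    rw [rng]; ring
  rw [← Real.le_log_iff_exp_le (mul_pos (pow_pos hqR _) (abs_pos.2 hdet))]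
  refine le_trans ?_ h1
  rw [hN1]
  have hK : ((1000 * n + κ : ℕ) : ℝ) ≤ 1000 * n + 2 := by push_cast; linarith
  have hr1 : (1 : ℝ) ≤ ((27200 * n + 4 * κ + 5 : ℕ) : ℝ) := by
    have : 1 ≤ 27200 * n + 4 * κ + 5 := by omega
    exact_mod_cast this
  have hr : ((27200 * n + 4 * κ + 5 : ℕ) : ℝ) ≤ 27201 * n := by
    have : 27200 * n + 4 * κ + 5 ≤ 27201 * n := by omega
    exact_mod_cast this
  have h8 := crude_le hnR (Nat.cast_nonneg (1000 * n + κ)) hK hr1 hr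
  have hnn : 80 * (n : ℝ) ≤ (n : ℝ) ^ 2 := by nlinarith
  linarith only [h8, hnn, hnR]

/-- **The arithmetic lower bound for `n` at least `160`, parameters `L`, `U`.** -/
theorem arithLU160 {L U : ℝ}
    (hbd : ∀ x : ℝ, 2000 ≤ x → L * x ≤ Chebyshev.psi x ∧ Chebyshev.psi x ≤ U * x)
    (hle : ∀ x : ℝ, 0 ≤ x → Chebyshev.psi x ≤ 1.04 * x)
    (n κ : ℕ) (hn : 160 ≤ n) (hκ : κ ≤ 2) (p q : ℤ) (hq : 0 < q)
    (hdet : (HM ((p : ℝ) / q) (1200 * n) (2600 * n) (5200 * n) (1000 * n + κ)).det ≠ 0) :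
    Real.exp (-((40000 * (110931 / 560 * U - 62319 / 880 * L) - 103345) * (n : ℝ) ^ 2)) ≤
      (q : ℝ) ^ (1000 * n + κ) *
        |(HM ((p : ℝ) / q) (1200 * n) (2600 * n) (5200 * n) (1000 * n + κ)).det| := by
  have hqR : (0 : ℝ) < q := by exact_mod_cast hq
  have hnR : (160 : ℝ) ≤ n := by exact_mod_cast hn
  have hκR : (κ : ℝ) ≤ 2 := by exact_mod_cast hκ
  have h1 := arith_log hbd hle n κ (by omega) hκ p q hq hdet
  have hN1 : rng (1200 * n) (2600 * n) (5200 * n) (1000 * n + κ) = 27200 * n + 4 * κ + 5 := by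
    rw [rng]; ring
  rw [← Real.le_log_iff_exp_le (mul_pos (pow_pos hqR _) (abs_pos.2 hdet))]
  refine le_trans ?_ h1
  rw [hN1]
  have hK : ((1000 * n + κ : ℕ) : ℝ) ≤ 1000 * n + 2 := by push_cast; linarith
  have hr1 : (1 : ℝ) ≤ ((27200 * n + 4 * κ + 5 : ℕ) : ℝ) := by
    have : 1 ≤ 27200 * n + 4 * κ + 5 := by omega
    exact_mod_cast this
  have hr : ((27200 * n + 4 * κ + 5 : ℕ) : ℝ) ≤ 27201 * n := by
    have : 27200 * n + 4 * κ + 5 ≤ 27201 * n := by omega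
    exact_mod_cast this
  have h8 := crude_le160 hnR (Nat.cast_nonneg (1000 * n + κ)) hK hr1 hr
  have hnn : 160 * (n : ℝ) ≤ (n : ℝ) ^ 2 := by nlinarith
  linarith only [h8, hnn, hnR]

/-- numeric instance for version 2 -/
theorem arith160 (hbd : ∀ x : ℝ, 2000 ≤ x → 0.9835 * x ≤ Chebyshev.psi x ∧
      Chebyshev.psi x ≤ 1.0165 * x)
    (hle : ∀ x : ℝ, 0 ≤ x → Chebyshev.psi x ≤ 1.04 * x)
    (n κ : ℕ) (hn : 160 ≤ n) (hκ : κ ≤ 2) (p q : ℤ) (hq : 0 < q)
    (hdet : (HM ((p : ℝ) / q) (1200 * n) (2600 * n) (5200 * n) (1000 * n + κ)).det ≠ 0) :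
    Real.exp (-(5165200 * (n : ℝ) ^ 2)) ≤ (q : ℝ) ^ (1000 * n + κ) *
      |(HM ((p : ℝ) / q) (1200 * n) (2600 * n) (5200 * n) (1000 * n + κ)).det| := by
  refine le_trans (Real.exp_le_exp.2 ?_) (arithLU160 hbd hle n κ hn hκ p q hq hdet)
  have hn2 : (0 : ℝ) ≤ (n : ℝ) ^ 2 := by positivity
  nlinarith only [hn2]

/-- numeric instance: `U = 1.0162`, `L = 0.984` (already for `n` at least `160`) -/
theorem arith2 (hbd : ∀ x : ℝ, 2000 ≤ x → 0.984 * x ≤ Chebyshev.psi x ∧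
      Chebyshev.psi x ≤ 1.0162 * x)
    (hle : ∀ x : ℝ, 0 ≤ x → Chebyshev.psi x ≤ 1.04 * x)
    (n κ : ℕ) (hn : 160 ≤ n) (hκ : κ ≤ 2) (p q : ℤ) (hq : 0 < q)
    (hdet : (HM ((p : ℝ) / q) (1200 * n) (2600 * n) (5200 * n) (1000 * n + κ)).det ≠ 0) :
    Real.exp (-(5161302 * (n : ℝ) ^ 2)) ≤ (q : ℝ) ^ (1000 * n + κ) *
      |(HM ((p : ℝ) / q) (1200 * n) (2600 * n) (5200 * n) (1000 * n + κ)).det| := by
  refine le_trans (Real.exp_le_exp.2 ?_) (arithLU160 hbd hle n κ hn hκ p q hq hdet)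
  have hn2 : (0 : ℝ) ≤ (n : ℝ) ^ 2 := by positivity
  nlinarith only [hn2]

end Vale.Agent.P021.Eff
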