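import Mathlib

set_option autoImplicit false

/-!
# `∑ Λ(m) (max (v - m) 0 - max (u - m) 0) = ∫_u^v ψ`
-/

open Finset

namespace Vale.Agent.P021.H749

/-- `max (X - m) 0` has the right derivative `1[m ≤ X]`. -/
lemma hasDeriv_right (m x : ℝ) :
    HasDerivWithinAt (fun X : ℝ => max (X - m) 0) (if m ≤ x then 1 else 0) (Set.Ioi x) x := by
  split_ifs with h
  · have h1 : HasDerivWithinAt (fun X : ℝ => X - m) 1 (Set.Ioi x) x :=
      ((hasDerivAt_id x).sub_const m).hasDerivWithinAt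
    refine h1.congr (fun y hy => ?_) ?_
    · exact max_eq_left (by have := Set.mem_Ioi.1 hy; linarith)
    · exact max_eq_left (by linarith)
  · push Not at h
    have h1 : HasDerivAt (fun X : ℝ => max (X - m) 0) 0 x := by
      have h2 : (fun X : ℝ => max (X - m) 0) =ᶠ[nhds x] fun _ => 0 := by
        filter_upwards [Iio_mem_nhds h] with y hy
        exact max_eq_right (by have := Set.mem_Iio.1 hy; linarith)
      exact (hasDerivAt_const x (0 : ℝ)).congr_of_eventuallyEq h2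
    exact h1.hasDerivWithinAt

/-- `∑_{m ≤ N} Λ(m) max (X - m) 0` -/
noncomputable def P1 (N : ℕ) (X : ℝ) : ℝ :=
  ∑ m ∈ Ioc 0 N, ArithmeticFunction.vonMangoldt m * max (X - (m : ℝ)) 0

lemma psi_eq_sum (N : ℕ) {x : ℝ} (h0 : 0 ≤ x) (hx : x ≤ N) :
    Chebyshev.psi x =
      ∑ m ∈ Ioc 0 N, ArithmeticFunction.vonMangoldt m * (if (m : ℝ) ≤ x then (1 : ℝ) else 0) := by
  have h1 : Ioc 0 ⌊x⌋₊ = (Ioc 0 N).filter (fun m : ℕ => (m : ℝ) ≤ x) := by
    ext m
    rw [mem_Ioc, mem_filter, mem_Ioc]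
    constructor
    · rintro ⟨h2, h3⟩
      have h4 : (m : ℝ) ≤ x := (Nat.le_floor_iff h0).1 h3
      exact ⟨⟨h2, by exact_mod_cast h4.trans hx⟩, h4⟩
    · rintro ⟨⟨h2, _⟩, h4⟩
      exact ⟨h2, (Nat.le_floor_iff h0).2 h4⟩
  rw [Chebyshev.psi, h1, sum_filter]
  refine sum_congr rfl fun m _ => ?_
  split_ifs <;> simp

lemma P1_sub (N : ℕ) {u v : ℝ} (hu : 0 ≤ u) (huv : u ≤ v) (hv : v ≤ N) :
    P1 N v - P1 N u = ∫ y in u..v, Chebyshev.psi y := by
  symm
  refine intervalIntegral.integral_eq_sub_of_hasDeriv_right ?_ ?_ ?_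
  · refine Continuous.continuousOn ?_
    unfold P1
    fun_prop
  · intro x hx
    rw [min_eq_left huv, max_eq_right huv] at hx
    rw [psi_eq_sum N (hu.trans hx.1.le) (hx.2.le.trans hv)]
    unfold P1
    exact HasDerivWithinAt.fun_sum fun m _ => (hasDeriv_right (m : ℝ) x).const_mul _
  · exact (Chebyshev.psi_mono.monotoneOn _).intervalIntegrable

lemma P1_sub_le (N : ℕ) {u v U : ℝ} (hu : 0 ≤ u) (huv : u ≤ v) (hv : v ≤ N)
    (h : ∀ y ∈ Set.Icc u v, Chebyshev.psi y ≤ U * y) :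
    P1 N v - P1 N u ≤ U * ((v ^ 2 - u ^ 2) / 2) := by
  rw [P1_sub N hu huv hv]
  calc _ ≤ ∫ y in u..v, U * y :=
        intervalIntegral.integral_mono_on huv
          (Chebyshev.psi_mono.monotoneOn _).intervalIntegrable
          ((continuous_const.mul continuous_id).intervalIntegrable _ _) h
    _ = _ := by rw [intervalIntegral.integral_const_mul, integral_id]

lemma le_P1_sub (N : ℕ) {u v U : ℝ} (hu : 0 ≤ u) (huv : u ≤ v) (hv : v ≤ N)
    (h : ∀ y ∈ Set.Icc u v, U * y ≤ Chebyshev.psi y) :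
    U * ((v ^ 2 - u ^ 2) / 2) ≤ P1 N v - P1 N u := by
  rw [P1_sub N hu huv hv]
  calc _ = ∫ y in u..v, U * y := by rw [intervalIntegral.integral_const_mul, integral_id]
    _ ≤ _ := intervalIntegral.integral_mono_on huv
          ((continuous_const.mul continuous_id).intervalIntegrable _ _)
          (Chebyshev.psi_mono.monotoneOn _).intervalIntegrable h

end Vale.Agent.P021.H749
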