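import Vale.Agent.P021.H749.Abel
import Vale.Agent.P021.H749.Maj

set_option autoImplicit false

/-!
# The explicit arithmetic lower bound
-/

open Finset

namespace Vale.Agent.P021.H749

open Vale.Agent.P021.Det

/-! ### small primes -/

lemma pc_le (k : ℕ) (hk : 210 ≤ k) : Nat.primeCounting k ≤ 46 + 48 * (k / 210) := by
  have h := Nat.primeCounting'_add_le (a := 210) (k := 211) (by norm_num) (by norm_num) (k - 210)
  have e1 : 211 + (k - 210) = k + 1 := by omega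
  have e2 : (k - 210) / 210 + 1 = k / 210 := by omega
  have e3 : Nat.primeCounting' 211 = 46 := by decide +kernel
  have e4 : Nat.totient 210 = 48 := by decide +kernel
  rw [e1, e2, e3, e4] at h
  exact h

lemma small_sum (r : ℕ) (hr : 44100 ≤ r) {C : ℝ} (hC : 0 ≤ C) :
    ∑ x ∈ (Ioc 0 r).filter Nat.Prime, (if x ^ 2 ≤ r ∨ x < 7 then C else 0) ≤
      (46 + 8 / 35 * Real.sqrt r) * C := by
  rw [← sum_filter, sum_const, nsmul_eq_mul]
  refine mul_le_mul_of_nonneg_right ?_ hC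
  have hs : 210 ≤ Nat.sqrt r := by
    rw [Nat.le_sqrt']
    omega
  have h4 : (((Ioc 0 r).filter Nat.Prime).filter (fun x => x ^ 2 ≤ r ∨ x < 7)) ⊆
      (range (Nat.sqrt r + 1)).filter Nat.Prime := by
    intro x hx
    rw [Finset.mem_filter, Finset.mem_filter] at hx
    rw [Finset.mem_filter, Finset.mem_range]
    refine ⟨?_, hx.1.2⟩
    rcases hx.2 with h | h
    · have : x ≤ Nat.sqrt r := Nat.le_sqrt'.2 h
      omega
    · omega
  have h5 := card_le_card h4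
  have h6 : ((range (Nat.sqrt r + 1)).filter Nat.Prime).card = Nat.primeCounting (Nat.sqrt r) := by
    rw [Nat.primeCounting, Nat.primeCounting', Nat.count_eq_card_filter_range]
  rw [h6] at h5
  have h7 := h5.trans (pc_le _ hs)
  have h8 : ((Nat.sqrt r : ℕ) : ℝ) ≤ Real.sqrt r := Real.nat_sqrt_le_real_sqrt
  have h9 : (((Nat.sqrt r / 210 : ℕ)) : ℝ) ≤ (Nat.sqrt r : ℝ) / 210 := Nat.cast_div_le
  calc (_ : ℝ) ≤ ((46 + 48 * (Nat.sqrt r / 210) : ℕ) : ℝ) := by exact_mod_cast h7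
    _ = 46 + 48 * ((Nat.sqrt r / 210 : ℕ) : ℝ) := by push_cast; ring
    _ ≤ _ := by linarith

lemma log_NN_ge' (u : ℕ → ℝ) (a b m K : ℕ) (p q : ℤ) (hu : ∀ l, 0 ≤ u l)
    (hloc : ∀ l : ℕ, l.Prime → 7 ≤ l → rng a b m K < l ^ 2 →
      ∃ e : ℕ, padicNorm l (NN a b m K p q) ≤ (l : ℚ) ^ e ∧ (e : ℝ) ≤ u l)
    (hN : NN a b m K p q ≠ 0) (hr : 44100 ≤ rng a b m K) :
    -(∑ l ∈ (Ioc 0 (rng a b m K)).filter Nat.Prime, u l * Real.log l +
      (46 + 8 / 35 * Real.sqrt (rng a b m K)) * ((K : ℝ) * Real.log (rng a b m K)) +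
      T2 b m K + T5 a b m K) ≤ Real.log |((NN a b m K p q : ℚ) : ℝ)| := by
  have h1 := log_abs_ge (NN a b m K p q) hN (rng a b m K) (betG u a b m K)
    (fun l hl _ => log_norm_leG u a b m K p q hu hloc hN l hl)
    (fun l hl hR => by
      have hR5 : 5 ≤ rng a b m K := by unfold rng; omega
      have : 7 ≤ l := by
        have h6 : l ≠ 6 := by rintro rfl; exact absurd hl (by norm_num)
        omega
      exact local_big a b m K p q l hl this hR)
  refine le_trans ?_ h1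
  rw [neg_le_neg_iff]
  unfold betG
  rw [sum_add_distrib, sum_add_distrib, sum_add_distrib]
  have e2 : ∑ x ∈ (Ioc 0 (rng a b m K)).filter Nat.Prime, (if x = 2 then T2 b m K else 0) =
      T2 b m K := by
    rw [sum_ite_eq', if_pos]
    rw [Finset.mem_filter, mem_Ioc]
    exact ⟨⟨by norm_num, by omega⟩, Nat.prime_two⟩
  have e5 : ∑ x ∈ (Ioc 0 (rng a b m K)).filter Nat.Prime, (if x = 5 then T5 a b m K else 0) =
      T5 a b m K := by
    rw [sum_ite_eq', if_pos]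
    rw [Finset.mem_filter, mem_Ioc]
    exact ⟨⟨by norm_num, by omega⟩, Nat.prime_five⟩
  rw [e2, e5]
  have hKR : 0 ≤ (K : ℝ) * Real.log (rng a b m K) := by
    have := Real.log_natCast_nonneg (rng a b m K)
    positivity
  have h3 := small_sum (rng a b m K) hr hKR
  linarith only [h3]

/-! ### the local bound -/

lemma bad3R_scale200 (y : ℝ) :
    bad3R 1200 2600 5200 1000 (y * 200) = 200 * bad3R 6 13 26 5 y := by
  have h1 := plainR_scale 6 13 26 5 y 200 (by norm_num)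
  have h2 := winR_scale 6 13 26 5 y 200 (by norm_num)
  have h3 := win2R_scale 6 13 26 5 y 200 (by norm_num)
  rw [show (6 : ℝ) * 200 = 1200 by norm_num, show (13 : ℝ) * 200 = 2600 by norm_num,
    show (26 : ℝ) * 200 = 5200 by norm_num, show (5 : ℝ) * 200 = 1000 by norm_num] at h1 h2 h3
  unfold bad3R badR
  rw [h1, h2, h3, mul_min_of_nonneg _ _ (by norm_num : (0 : ℝ) ≤ 200),
    mul_min_of_nonneg _ _ (by norm_num : (0 : ℝ) ≤ 200),
    mul_min_of_nonneg _ _ (by norm_num : (0 : ℝ) ≤ 200)]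
  norm_num

lemma loc (n κ : ℕ) (hn : 0 < n) (hκ : κ ≤ 2) (p q : ℤ) (l : ℕ) (hl : l.Prime) (h7 : 7 ≤ l)
    (hr : rng (1200 * n) (2600 * n) (5200 * n) (1000 * n + κ) < l ^ 2) :
    ∃ e : ℕ, padicNorm l (NN (1200 * n) (2600 * n) (5200 * n) (1000 * n + κ) p q) ≤
      (l : ℚ) ^ e ∧ (e : ℝ) ≤ 200 * n * G ((l : ℝ) / (200 * n)) + 12 := by
  obtain ⟨e, he1, he2⟩ := local_odd3 _ _ _ _ p q l hl h7 hr
  refine ⟨e, he1, he2.trans ?_⟩
  have hnR : (0 : ℝ) < n := by exact_mod_cast hn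
  have h1 := bad3R_scale 1200 2600 5200 1000 l hnR κ (Nat.cast_nonneg _)
  have hκ' : (κ : ℝ) ≤ 2 := by exact_mod_cast hκ
  have h2 := bad3R_scale200 ((l : ℝ) / (200 * n))
  have e1 : (l : ℝ) / (200 * n) * 200 = l / n := by field_simp
  rw [e1] at h2
  have h3 := mul_le_mul_of_nonneg_left (maj ((l : ℝ) / (200 * n)))
    (by positivity : (0 : ℝ) ≤ 200 * n)
  rw [h2] at h1
  push_cast
  linarith only [h1, h3, hκ']

/-! ### the sum over the primes -/

lemma T_scale {R : ℝ} (hR : 0 < R) (a b m : ℝ) : R * T a b (m / R) = T (a * R) (b * R) m := by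
  have e : ∀ c : ℝ, max (c * R - m) 0 = R * max (c - m / R) 0 := by
    intro c
    rw [mul_max_of_nonneg _ _ hR.le, mul_zero]
    congr 1
    field_simp
  unfold T
  rw [e, e]
  ring

lemma sum_T (N : ℕ) (a b : ℝ) :
    ∑ m ∈ Ioc 0 N, ArithmeticFunction.vonMangoldt m * T a b m = P1 N b - P1 N a := by
  unfold P1 T
  rw [← sum_sub_distrib]
  refine sum_congr rfl fun m _ => ?_
  ring

lemma G_scale {R : ℝ} (hR : 0 < R) (m : ℝ) : R * G (m / R) =
    5 * T (31 / 5 * R) (32 / 5 * R) m + 5 / 2 * T (32 / 5 * R) (13 / 2 * R) m -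
      11 / 2 * T (13 / 2 * R) (74 / 11 * R) m + 7 / 2 * T (74 / 7 * R) (32 / 3 * R) m +
      2 * T (32 / 3 * R) (12 * R) m + 3 / 2 * T (12 * R) (13 * R) m -
      5 / 2 * T (13 * R) (74 / 5 * R) m + 3 / 2 * T (74 / 3 * R) (26 * R) m +
      1 / 2 * T (26 * R) (32 * R) m := by
  unfold G
  simp only [← T_scale hR]
  ring

lemma sum_G {R : ℝ} (hR : 0 < R) (N : ℕ) :
    ∑ m ∈ Ioc 0 N, ArithmeticFunction.vonMangoldt m * (R * G (m / R)) =
    5 * (P1 N (32 / 5 * R) - P1 N (31 / 5 * R)) +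
      5 / 2 * (P1 N (13 / 2 * R) - P1 N (32 / 5 * R)) -
      11 / 2 * (P1 N (74 / 11 * R) - P1 N (13 / 2 * R)) +
      7 / 2 * (P1 N (32 / 3 * R) - P1 N (74 / 7 * R)) +
      2 * (P1 N (12 * R) - P1 N (32 / 3 * R)) +
      3 / 2 * (P1 N (13 * R) - P1 N (12 * R)) -
      5 / 2 * (P1 N (74 / 5 * R) - P1 N (13 * R)) +
      3 / 2 * (P1 N (26 * R) - P1 N (74 / 3 * R)) +
      1 / 2 * (P1 N (32 * R) - P1 N (26 * R)) := by
  simp only [← sum_T, mul_sum, ← sum_add_distrib, ← sum_sub_distrib]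
  refine sum_congr rfl fun m _ => ?_
  rw [G_scale hR]
  ring

lemma sum_log_le (N : ℕ) (g : ℕ → ℝ) (hg : ∀ m, 0 ≤ g m) :
    ∑ l ∈ (Ioc 0 N).filter Nat.Prime, g l * Real.log l ≤
      ∑ m ∈ Ioc 0 N, ArithmeticFunction.vonMangoldt m * g m := by
  rw [sum_filter]
  refine sum_le_sum fun m _ => ?_
  split_ifs with h
  · rw [ArithmeticFunction.vonMangoldt_apply_prime h, mul_comm]
  · exact mul_nonneg ArithmeticFunction.vonMangoldt_nonneg (hg m)

lemma sum_le (hbd : ∀ x : ℝ, 1300 ≤ x → 0.9695 * x ≤ Chebyshev.psi x ∧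
      Chebyshev.psi x ≤ 1.03 * x)
    (hle : ∀ x : ℝ, 0 ≤ x → Chebyshev.psi x ≤ 1.04 * x) {R : ℝ} (hR : 1000 ≤ R) (N : ℕ)
    (hN : 32 * R ≤ N) :
    ∑ l ∈ (Ioc 0 N).filter Nat.Prime, (R * G ((l : ℝ) / R) + 12) * Real.log l ≤
      1667840673 / 12320000 * R ^ 2 + 12 * (1.04 * N) := by
  have hR0 : 0 < R := by linarith
  have h1 : ∑ l ∈ (Ioc 0 N).filter Nat.Prime, (R * G ((l : ℝ) / R) + 12) * Real.log l =
      ∑ l ∈ (Ioc 0 N).filter Nat.Prime, (R * G ((l : ℝ) / R)) * Real.log l +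
        12 * Chebyshev.theta N := by
    rw [Chebyshev.theta, Nat.floor_natCast, mul_sum, ← sum_add_distrib]
    refine sum_congr rfl fun l _ => ?_
    ring
  have h2 := sum_log_le N (fun l => R * G ((l : ℝ) / R))
    (fun l => mul_nonneg hR0.le (G_nonneg _))
  rw [sum_G hR0] at h2
  have h3 : Chebyshev.theta N ≤ 1.04 * N :=
    (Chebyshev.theta_le_psi _).trans (hle _ (Nat.cast_nonneg _))
  have up : ∀ a b : ℝ, 6 ≤ a → a ≤ b → b ≤ 32 →
      P1 N (b * R) - P1 N (a * R) ≤ 1.03 * (((b * R) ^ 2 - (a * R) ^ 2) / 2) := by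
    intro a b ha hab hb
    have haR : 1300 ≤ a * R := by nlinarith
    refine P1_sub_le N (by linarith) (mul_le_mul_of_nonneg_right hab hR0.le) ?_ ?_
    · exact (mul_le_mul_of_nonneg_right hb hR0.le).trans hN
    · intro y hy
      exact (hbd y (haR.trans hy.1)).2
  have dn : ∀ a b : ℝ, 6 ≤ a → a ≤ b → b ≤ 32 →
      0.9695 * (((b * R) ^ 2 - (a * R) ^ 2) / 2) ≤ P1 N (b * R) - P1 N (a * R) := by
    intro a b ha hab hb
    have haR : 1300 ≤ a * R := by nlinarith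
    refine le_P1_sub N (by linarith) (mul_le_mul_of_nonneg_right hab hR0.le) ?_ ?_
    · exact (mul_le_mul_of_nonneg_right hb hR0.le).trans hN
    · intro y hy
      exact (hbd y (haR.trans hy.1)).1
  have u1 := up (31 / 5) (32 / 5) (by norm_num) (by norm_num) (by norm_num)
  have u2 := up (32 / 5) (13 / 2) (by norm_num) (by norm_num) (by norm_num)
  have u3 := dn (13 / 2) (74 / 11) (by norm_num) (by norm_num) (by norm_num)
  have u4 := up (74 / 7) (32 / 3) (by norm_num) (by norm_num) (by norm_num)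
  have u5 := up (32 / 3) 12 (by norm_num) (by norm_num) (by norm_num)
  have u6 := up 12 13 (by norm_num) (by norm_num) (by norm_num)
  have u7 := dn 13 (74 / 5) (by norm_num) (by norm_num) (by norm_num)
  have u8 := up (74 / 3) 26 (by norm_num) (by norm_num) (by norm_num)
  have u9 := up 26 32 (by norm_num) (by norm_num) (by norm_num)
  rw [h1]
  simp only [mul_pow] at u1 u2 u3 u4 u5 u6 u7 u8 u9
  linarith only [h2, h3, u1, u2, u3, u4, u5, u6, u7, u8, u9]

/-! ### the crude term -/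

lemma log_le_aux : Real.log 2176080 ≤ 14.594 := by
  have h1 : Real.log 2176080 = 21 * Real.log 2 + Real.log (2176080 / 2097152) := by
    rw [← Real.log_rpow (by norm_num : (0 : ℝ) < 2), ← Real.log_mul (by positivity) (by norm_num)]
    norm_num
  have h2 : Real.log (2176080 / 2097152) ≤ 2176080 / 2097152 - 1 :=
    Real.log_le_sub_one_of_pos (by norm_num)
  have h3 := Real.log_two_lt_d9
  rw [h1]
  norm_num at h2 ⊢
  linarith

lemma crude_le {n k r : ℝ} (hn : 80 ≤ n) (hk0 : 0 ≤ k) (hk : k ≤ 1000 * n + 2) (hr1 : 1 ≤ r)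
    (hr : r ≤ 27201 * n) :
    (46 + 8 / 35 * Real.sqrt r) * (k * Real.log r) ≤ 70000 * n ^ 2 := by
  set t : ℝ := Real.sqrt (n / 80) with ht
  have ht2 : t ^ 2 = n / 80 := Real.sq_sqrt (by linarith)
  have ht0 : 0 ≤ t := Real.sqrt_nonneg _
  have ht1 : 1 ≤ t := by
    rw [ht]
    exact Real.one_le_sqrt.2 (by linarith)
  have hn' : n = 80 * t ^ 2 := by rw [ht2]; ring
  have h1 : Real.sqrt r ≤ 1475.2 * t := by
    rw [Real.sqrt_le_left (by positivity)]
    rw [mul_pow, ht2]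
    linarith
  have h2 : Real.log r ≤ 14.594 * t := by
    have h3 : Real.log r ≤ Real.log (2176080 * t ^ 2) :=
      Real.log_le_log (by linarith) (by rw [ht2]; linarith)
    have h4 : Real.log (2176080 * t ^ 2) = Real.log 2176080 + 2 * Real.log t := by
      rw [Real.log_mul (by norm_num) (by positivity), Real.log_pow]
      norm_num
    have h5 : Real.log t ≤ t - 1 := Real.log_le_sub_one_of_pos (by linarith)
    have h6 := log_le_aux
    linarith
  have h0 : 0 ≤ Real.log r := Real.log_nonneg hr1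
  have hs := Real.sqrt_nonneg r
  have a1 : 46 + 8 / 35 * Real.sqrt r ≤ 383.2 * t := by linarith
  have a2 : k ≤ 80002 * t ^ 2 := by nlinarith
  calc (46 + 8 / 35 * Real.sqrt r) * (k * Real.log r)
      ≤ (383.2 * t) * ((80002 * t ^ 2) * (14.594 * t)) :=
        mul_le_mul a1 (mul_le_mul a2 h2 h0 (by positivity)) (mul_nonneg hk0 h0) (by positivity)
    _ = (383.2 * 80002 * 14.594) * (t ^ 2) ^ 2 := by ring
    _ ≤ 70000 * n ^ 2 := by
        rw [hn']
        have : 0 ≤ (t ^ 2) ^ 2 := by positivity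
        nlinarith

end Vale.Agent.P021.H749

namespace Vale.Agent.P021.Eff

open Vale.Agent.P021.Det Vale.Agent.P021.H749

/-- **The explicit arithmetic lower bound.** -/
theorem arith (hbd : ∀ x : ℝ, 1300 ≤ x → 0.9695 * x ≤ Chebyshev.psi x ∧
      Chebyshev.psi x ≤ 1.03 * x)
    (hle : ∀ x : ℝ, 0 ≤ x → Chebyshev.psi x ≤ 1.04 * x)
    (n κ : ℕ) (hn : 80 ≤ n) (hκ : κ ≤ 2) (p q : ℤ) (hq : 0 < q)
    (hdet : (HM ((p : ℝ) / q) (1200 * n) (2600 * n) (5200 * n) (1000 * n + κ)).det ≠ 0) :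
    Real.exp (-(5360000 * (n : ℝ) ^ 2)) ≤ (q : ℝ) ^ (1000 * n + κ) *
      |(HM ((p : ℝ) / q) (1200 * n) (2600 * n) (5200 * n) (1000 * n + κ)).det| := by
  have hnR : (80 : ℝ) ≤ n := by exact_mod_cast hn
  have hκR : (κ : ℝ) ≤ 2 := by exact_mod_cast hκ
  have hκ0 : (0 : ℝ) ≤ κ := Nat.cast_nonneg _
  have hqR : (0 : ℝ) < q := by exact_mod_cast hq
  have hNN := NN_eq (1200 * n) (2600 * n) (5200 * n) (1000 * n + κ) p q hq
  have hNNR : ((NN (1200 * n) (2600 * n) (5200 * n) (1000 * n + κ) p q : ℚ) : ℝ) ≠ 0 := by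
    rw [hNN]
    exact mul_ne_zero (pow_pos (by linarith only [hqR]) _).ne' hdet
  have hNN0 : NN (1200 * n) (2600 * n) (5200 * n) (1000 * n + κ) p q ≠ 0 := by
    exact_mod_cast hNNR
  set N : ℕ := rng (1200 * n) (2600 * n) (5200 * n) (1000 * n + κ) with hNdef
  have hN1 : N = 27200 * n + 4 * κ + 5 := by rw [hNdef, rng]; ring
  have hN2 : (N : ℝ) ≤ 27201 * n := by
    have : N ≤ 27201 * n := by omega
    exact_mod_cast this
  have hN3 : 32 * (200 * (n : ℝ)) ≤ N := by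
    have : 32 * (200 * n) ≤ N := by omega
    exact_mod_cast this
  have hN4 : (1 : ℝ) ≤ N := by
    have : 1 ≤ N := by omega
    exact_mod_cast this
  have h3 := log_NN_ge' (fun l => 200 * n * G ((l : ℝ) / (200 * n)) + 12) _ _ _ _ p q
    (fun l => by
      have := G_nonneg ((l : ℝ) / (200 * n))
      positivity)
    (fun l hl h7 hr => loc n κ (by omega) hκ p q l hl h7 hr) hNN0 (by rw [← hNdef]; omega)
  rw [← hNdef] at h3
  have h4 := sum_le hbd hle (R := 200 * n) (by linarith) N hN3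
  have h5 := T5_le 1000 1200 2600 5200 n κ
  have h6 := T2_le 1000 2600 5200 n κ hκ
  have hK : ((1000 * n + κ : ℕ) : ℝ) ≤ 1000 * n + 2 := by push_cast; linarith
  have h8 := crude_le hnR (Nat.cast_nonneg (1000 * n + κ)) hK hN4 hN2
  have hlogeq := log_NN_eq (1200 * n) (2600 * n) (5200 * n) (1000 * n + κ) p q hq hdet
  rw [hlogeq] at h3
  have l5 := Real.log_five_lt_d9
  have l5' : 0 < Real.log 5 := Real.log_pos (by norm_num)
  have l2 := Real.log_two_gt_d9
  have l2' := Real.log_two_lt_d9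
  have hnn : 80 * (n : ℝ) ≤ (n : ℝ) ^ 2 := by nlinarith
  have hn2 : (0 : ℝ) ≤ (n : ℝ) ^ 2 := by positivity
  have c5 : T5 (1200 * n) (2600 * n) (5200 * n) (1000 * n + κ) ≤
      1577250 * (n : ℝ) ^ 2 + 2300 * n + 2 := by
    refine h5.trans ?_
    have e1 : ((5200 - (1200 + 2600) : ℕ) : ℝ) = 1400 := by norm_num
    rw [e1]
    nlinarith
  have c2 : T2 (2600 * n) (5200 * n) (1000 * n + κ) ≤
      -(1732867 * (n : ℝ) ^ 2) + 20000 * n + 4 := by
    refine h6.trans ?_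
    push_cast
    nlinarith
  have cK : ((1000 * n + κ : ℕ) : ℝ) * Real.log 2 ≤ 1000 * n + 2 := by
    have h9 : (0 : ℝ) ≤ ((1000 * n + κ : ℕ) : ℝ) := Nat.cast_nonneg _
    nlinarith
  have hfin : -(5360000 * (n : ℝ) ^ 2) ≤ Real.log ((q : ℝ) ^ (1000 * n + κ) *
      |(HM ((p : ℝ) / q) (1200 * n) (2600 * n) (5200 * n) (1000 * n + κ)).det|) := by
    have e6 : (200 * (n : ℝ)) ^ 2 = 40000 * (n : ℝ) ^ 2 := by ring
    rw [e6] at h4
    linarith only [h3, h4, c5, c2, cK, h8, hN2, hnn, hnR]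
  exact (Real.le_log_iff_exp_le (mul_pos (pow_pos hqR _) (abs_pos.2 hdet))).1 hfin

end Vale.Agent.P021.Eff
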